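import Mathlib

/-!
Tingley's problem for real inner product spaces: every isometry between the unit spheres of two
real inner product spaces is the restriction of a linear isometry, which is onto when the
isometry of the spheres is onto.
-/

namespace Vale.Agent.Results.P084.InnerProduct

open Metric
open scoped RealInnerProductSpace

variable {E F : Type} [NormedAddCommGroup E] [InnerProductSpace ℝ E]
  [NormedAddCommGroup F] [InnerProductSpace ℝ F]

/-- The normalisation of a nonzero vector, as a point of the unit sphere. -/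
noncomputable def nrm (x : E) (hx : x ≠ 0) : sphere (0 : E) 1 :=
  ⟨‖x‖⁻¹ • x, by
    have : ‖x‖ ≠ 0 := norm_ne_zero_iff.mpr hx
    simp [norm_smul, this]⟩

open Classical in
/-- The positively homogeneous extension of a map of unit spheres. -/
noncomputable def ext (f : sphere (0 : E) 1 → sphere (0 : F) 1) (x : E) : F :=
  if hx : x = 0 then 0 else ‖x‖ • (f (nrm x hx) : F)

theorem inner_sphere (f : sphere (0 : E) 1 → sphere (0 : F) 1) (hf : Isometry f)
    (u v : sphere (0 : E) 1) : ⟪(f u : F), (f v : F)⟫ = ⟪(u : E), (v : E)⟫ := by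
  have h1 : dist (f u) (f v) = dist u v := hf.dist_eq u v
  rw [Subtype.dist_eq, Subtype.dist_eq, dist_eq_norm, dist_eq_norm] at h1
  have hu : ‖(u : E)‖ = 1 := by simp
  have hv : ‖(v : E)‖ = 1 := by simp
  have hfu : ‖(f u : F)‖ = 1 := by simp
  have hfv : ‖(f v : F)‖ = 1 := by simp
  have e1 := norm_sub_sq_real (u : E) (v : E)
  have e2 := norm_sub_sq_real (f u : F) (f v : F)
  rw [h1, hfu, hfv] at e2
  rw [hu, hv] at e1
  linarith

theorem inner_ext (f : sphere (0 : E) 1 → sphere (0 : F) 1) (hf : Isometry f) (x y : E) :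
    ⟪ext f x, ext f y⟫ = ⟪x, y⟫ := by
  unfold ext
  by_cases hx : x = 0
  · simp [hx]
  by_cases hy : y = 0
  · simp [hy]
  rw [dif_neg hx, dif_neg hy, real_inner_smul_left, real_inner_smul_right, inner_sphere f hf]
  have hx' : ‖x‖ ≠ 0 := norm_ne_zero_iff.mpr hx
  have hy' : ‖y‖ ≠ 0 := norm_ne_zero_iff.mpr hy
  simp only [nrm, real_inner_smul_left, real_inner_smul_right]
  field_simp

theorem ext_add (f : sphere (0 : E) 1 → sphere (0 : F) 1) (hf : Isometry f) (x y : E) :
    ext f (x + y) = ext f x + ext f y := by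
  have h : ‖ext f (x + y) - (ext f x + ext f y)‖ ^ 2 = 0 := by
    rw [← real_inner_self_eq_norm_sq]
    simp only [inner_sub_left, inner_sub_right, inner_add_left, inner_add_right, inner_ext f hf]
    ring
  have h' : ‖ext f (x + y) - (ext f x + ext f y)‖ = 0 := by
    simpa using h
  exact sub_eq_zero.mp (norm_eq_zero.mp h')

theorem ext_smul (f : sphere (0 : E) 1 → sphere (0 : F) 1) (hf : Isometry f) (c : ℝ) (x : E) :
    ext f (c • x) = c • ext f x := by
  have h : ‖ext f (c • x) - c • ext f x‖ ^ 2 = 0 := by
    rw [← real_inner_self_eq_norm_sq]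
    simp only [inner_sub_left, inner_sub_right, real_inner_smul_left, real_inner_smul_right,
      inner_ext f hf]
    ring
  have h' : ‖ext f (c • x) - c • ext f x‖ = 0 := by
    simpa using h
  exact sub_eq_zero.mp (norm_eq_zero.mp h')

theorem ext_sphere (f : sphere (0 : E) 1 → sphere (0 : F) 1) (x : sphere (0 : E) 1) :
    ext f (x : E) = (f x : F) := by
  have hx1 : ‖(x : E)‖ = 1 := by simp
  have hx : (x : E) ≠ 0 := by
    intro h
    rw [h] at hx1
    simp at hx1
  unfold ext
  rw [dif_neg hx, hx1, one_smul]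
  congr 2
  apply Subtype.ext
  simp [nrm, hx1]

/-- The linear isometry extending an isometry of unit spheres. -/
noncomputable def extLI (f : sphere (0 : E) 1 → sphere (0 : F) 1) (hf : Isometry f) :
    E →ₗᵢ[ℝ] F where
  toFun := ext f
  map_add' := ext_add f hf
  map_smul' := fun c x => by simpa using ext_smul f hf c x
  norm_map' := fun x => by
    have h := inner_ext f hf x x
    rw [real_inner_self_eq_norm_sq, real_inner_self_eq_norm_sq] at h
    exact (sq_eq_sq₀ (norm_nonneg _) (norm_nonneg _)).mp h

theorem extLI_surjective (f : sphere (0 : E) 1 → sphere (0 : F) 1) (hf : Isometry f)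
    (hs : Function.Surjective f) : Function.Surjective (extLI f hf) := by
  intro y
  by_cases hy : y = 0
  · exact ⟨0, by simp [hy]⟩
  obtain ⟨u, hu⟩ := hs (nrm y hy)
  refine ⟨‖y‖ • (u : E), ?_⟩
  have h1 : extLI f hf (‖y‖ • (u : E)) = ‖y‖ • extLI f hf (u : E) := map_smul _ _ _
  have h2 : extLI f hf (u : E) = (f u : F) := ext_sphere f u
  rw [h1, h2, hu]
  have hy' : ‖y‖ ≠ 0 := norm_ne_zero_iff.mpr hy
  simp [nrm, smul_smul, hy']

/-- Every isometry between the unit spheres of two real inner product spaces is the restriction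
of a linear isometry; if the isometry of the spheres is onto, it is the restriction of a linear
isometry of the first space onto the second. -/
theorem result {E F : Type} [NormedAddCommGroup E] [InnerProductSpace ℝ E]
    [NormedAddCommGroup F] [InnerProductSpace ℝ F]
    (f : sphere (0 : E) 1 → sphere (0 : F) 1) (hf : Isometry f) :
    (∃ T : E →ₗᵢ[ℝ] F, ∀ x : sphere (0 : E) 1, T (x : E) = (f x : F)) ∧
    (Function.Surjective f →
      ∃ T : E ≃ₗᵢ[ℝ] F, ∀ x : sphere (0 : E) 1, T (x : E) = (f x : F)) := by
  refine ⟨⟨extLI f hf, ext_sphere f⟩, fun hs => ?_⟩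
  refine ⟨LinearIsometryEquiv.ofSurjective (extLI f hf) (extLI_surjective f hf hs), ?_⟩
  intro x
  exact ext_sphere f x

end Vale.Agent.Results.P084.InnerProduct
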